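import Vale.Agent.P062.All

namespace Vale.Agent.Results.P062.MakerWins

open Vale.Agent.P062

/-- Maker, moving first on the empty board `ℤ²` with no handicap, has a strategy `σ` that always
claims an unclaimed cell and, against every legal Breaker play, owns an allowed copy of Snaky
after at most 19 turns. -/
theorem result :
    ∃ σ : Finset (ℤ × ℤ) → Finset (ℤ × ℤ) → ℤ × ℤ,
      (∀ M B : Finset (ℤ × ℤ), σ M B ∉ M ∧ σ M B ∉ B) ∧
      ∀ β : ℕ → ℤ × ℤ,
        (∀ n < 18, β n ∉ makerCells σ β (n + 1) ∧ β n ∉ breakerCells β n) →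
        OwnsCopy (makerCells σ β 19) :=
  ⟨strat 19, strat_legal 19, strat_wins 18 win⟩

end Vale.Agent.Results.P062.MakerWins
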